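import Mathlib
import Vale.Agent.Lib.P064.Pack
import Vale.Agent.Lib.P064.Star
import Vale.Agent.Lib.P064.Count

/-!
# P064 (second Kahn-Kalai conjecture): the counting inequality for stars of every size

Graphs live on the vertex set `Fin n`.  `N H F` is the number of subgraphs of `H` isomorphic to
`F`, `ec F` the number of edges, `EN p F = N ⊤ F * p ^ ec F` the expected number of copies of `F`
in `G(n,p)`, and `star c S` the star with centre `c` and leaf set `S`.

Assume that every subgraph of `H` has expected count at least `1` at density `q`.  Then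
1. any family of pairwise edge-disjoint copies of a graph `F` in `H` has at most `3 * EN q F`
   members;
2. for every star `F = K_{1,t}`, `t ≥ 2` arbitrary, `N H F ≤ EN (min 1 (60 q)) F`.
-/

namespace Vale.Agent.Results.P064.StarCounts

open Vale.Agent.Lib.P064

theorem result (n : ℕ) (H : SimpleGraph (Fin n)) (q : ℝ) (hq : 0 ≤ q)
    (hyp : ∀ F : SimpleGraph (Fin n), F ≤ H → 1 ≤ EN q F) :
    (∀ (F : SimpleGraph (Fin n)) (P : Finset (SimpleGraph (Fin n))),
      (∀ G ∈ P, G ≤ H ∧ Nonempty (G ≃g F)) →
      (∀ G ∈ P, ∀ G' ∈ P, G ≠ G' → Disjoint G G') →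
      (P.card : ℝ) ≤ 3 * EN q F) ∧
    (∀ (c : Fin n) (S : Finset (Fin n)), c ∉ S → 2 ≤ S.card →
      (N H (star c S) : ℝ) ≤ EN (min 1 (60 * q)) (star c S)) :=
  ⟨fun F P hP hd => packing H q hq hyp F P hP hd,
   fun c S hc hS => star_bound H q hq hyp c S hc hS⟩

end Vale.Agent.Results.P064.StarCounts
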